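import Mathlib
import Vale.Agent.P192.Pres
import Vale.Agent.P192.Pres2

/-!
# P192: how many relators a finite presentation of a periodic group must have
-/

namespace Vale.Agent.Results.P192.RelatorCount

open Vale.Agent.P192

universe u v w

/-- `PresentedGroup (relators r k)` is the group with generators `x₁, …, xₙ` and relators
`r₁ ^ k₁, …, rₘ ^ kₘ`; every finite presentation has this form (with all `kⱼ = 1`). -/
theorem result :
    (∀ (n m : ℕ) (r : Fin m → FreeGroup (Fin n)) (k : Fin m → ℕ),
      (∀ g : PresentedGroup (relators r k), IsOfFinOrder g) →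
      -- (1) finite quotients and their representations
      (∀ (Q : Type u) [Group Q] [Finite Q] (π : PresentedGroup (relators r k) →* Q),
        Function.Surjective π →
        (∀ (F : Type v) [Field F] [CharZero F] (V : Type w) [AddCommGroup V] [Module F V]
          [Module.Finite F V] (ρ : Representation F Q V),
          n * Module.finrank F V + Module.finrank F ρ.invariants ≤ Module.finrank F V +
            ∑ j, Module.finrank F (fixed ρ (π (PresentedGroup.mk (relators r k) (r j))))) ∧
        -- (2) the regular representation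
        (n : ℚ) - 1 + 1 / Nat.card Q ≤
          ∑ j, 1 / (orderOf (π (PresentedGroup.mk (relators r k) (r j))) : ℚ)) ∧
      -- (3) roots with the full order in finite quotients
      ((∀ j, 1 ≤ k j) →
        (∀ j, ∃ (Q : Type) (_ : Group Q) (_ : Finite Q)
          (π : PresentedGroup (relators r k) →* Q),
          orderOf (π (PresentedGroup.mk (relators r k) (r j))) = k j) →
        (n : ℚ) - 1 < ∑ j, 1 / (k j : ℚ)) ∧
      -- (4) at least as many relators as generators
      n ≤ m) ∧
    -- (5) `n` generators, `n` relators, enough proper powers: not periodic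
    (∀ (n : ℕ) (r : Fin n → FreeGroup (Fin n)) (k : Fin n → ℕ), (∀ j, 1 ≤ k j) →
      1 ≤ ∑ j, (1 - 1 / (k j : ℚ)) →
      ∃ g : PresentedGroup (relators r k), ¬ IsOfFinOrder g) ∧
    -- (6) two proper powers are enough
    (∀ (n : ℕ) (r : Fin n → FreeGroup (Fin n)) (k : Fin n → ℕ), (∀ j, 1 ≤ k j) →
      ∀ i j : Fin n, i ≠ j → 2 ≤ k i → 2 ≤ k j →
      ∃ g : PresentedGroup (relators r k), ¬ IsOfFinOrder g) ∧
    -- (7) at most `p (n - 1)` relators, all `p`-th powers of words outside `F ^ p [F, F]`
    (∀ (p : ℕ), p.Prime → ∀ (n m : ℕ) (r : Fin m → FreeGroup (Fin n)),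
      (∀ j, ∃ χ : FreeGroup (Fin n) →* Multiplicative (ZMod p), χ (r j) ≠ 1) →
      m + p ≤ p * n →
      ∃ g : PresentedGroup (relators r fun _ => p), ¬ IsOfFinOrder g) := by
  have h5 : ∀ (n : ℕ) (r : Fin n → FreeGroup (Fin n)) (k : Fin n → ℕ), (∀ j, 1 ≤ k j) →
      1 ≤ ∑ j, (1 - 1 / (k j : ℚ)) →
      ∃ g : PresentedGroup (relators r k), ¬ IsOfFinOrder g := by
    intro n r k hk h
    by_contra hcon
    push Not at hcon
    exact absurd (Pres.balanced hk hcon) (not_lt.2 h)
  refine ⟨fun n m r k hT => ⟨fun Q _ _ π hπ => ⟨fun F _ _ V _ _ _ ρ => ?_, ?_⟩, ?_, ?_⟩, h5,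
    ?_, ?_⟩
  · exact Pres.rep_bound ρ hT π hπ
  · exact Pres.main_bound hT π hπ
  · exact fun hk h => Pres.full_orders hk hT h
  · exact Pres.le_card hT
  · intro n r k hk i j hij hi hj
    refine h5 n r k hk ?_
    have h1 : ∀ l, (0 : ℚ) ≤ 1 - 1 / (k l : ℚ) := by
      intro l
      have h2 : (1 : ℚ) ≤ k l := by exact_mod_cast hk l
      rw [sub_nonneg, div_le_one (by linarith)]
      exact h2
    have h3 : ∀ l, 2 ≤ k l → (1 : ℚ) / 2 ≤ 1 - 1 / (k l : ℚ) := by
      intro l hl
      have h4 : (2 : ℚ) ≤ k l := by exact_mod_cast hl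
      have h6 : 1 / (k l : ℚ) ≤ 1 / 2 := one_div_le_one_div_of_le (by norm_num) h4
      linarith
    calc (1 : ℚ) ≤ (1 - 1 / (k i : ℚ)) + (1 - 1 / (k j : ℚ)) := by
          have := h3 i hi
          have := h3 j hj
          linarith
      _ = ∑ l ∈ {i, j}, (1 - 1 / (k l : ℚ)) := by rw [Finset.sum_pair hij]
      _ ≤ ∑ l, (1 - 1 / (k l : ℚ)) :=
          Finset.sum_le_sum_of_subset_of_nonneg (Finset.subset_univ _) fun l _ _ => h1 l
  · intro p hp n m r hr hm
    by_contra hcon
    push Not at hcon
    have := Pres.prime_powers hp hr hcon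
    omega

end Vale.Agent.Results.P192.RelatorCount
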