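import Mathlib
import Vale.Agent.P196.Defs
import Vale.Agent.P192.Defs
import Vale.Agent.P192.CarvDef
import Vale.Agent.P192.Carving

/-!
# P192: restrictions on finitely presented periodic groups
-/

namespace Vale.Agent.Results.P192.SchreierGrowth

open Vale.Agent.P196 Vale.Agent.P192

universe u v w

/-- Let `G` be a finitely presented periodic group. -/
theorem result (G : Type u) [Group G] [Group.IsFinitelyPresented G]
    (hper : ∀ g : G, IsOfFinOrder g) :
    -- (1) growth of orbits
    (∀ S : Set G, S.Finite → Subgroup.closure S = ⊤ →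
      ∃ c : ℝ, 0 < c ∧ ∃ N : ℕ, ∀ (X : Type v) [MulAction G X] (x : X) (n : ℕ), N ≤ n →
        ball S x n ≠ MulAction.orbit G x →
          c * n * (Real.log n / Real.log (Real.log n)) ≤ (ball S x n).ncard) ∧
    -- (2) finite sets exhausting an infinite orbit have boundaries tending to infinity
    (∀ (X : Type v) [MulAction G X] (S : Set G), S.Finite → Subgroup.closure S = ⊤ →
      ∀ x : X, (MulAction.orbit G x).Infinite → ∀ C : ℕ,
        ∃ K : Set X, K.Finite ∧ K ⊆ MulAction.orbit G x ∧
          ∀ F : Set X, F.Finite → K ⊆ F → F ⊆ MulAction.orbit G x → C < (bdry S F).ncard) ∧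
    -- (3) actions by piecewise `H`-permutations, `H` virtually cyclic, have finite image
    (∀ (X : Type v) (H : Type w) [Group H] (t : H), (Subgroup.zpowers t).FiniteIndex →
      ∀ (ρ : G →* Equiv.Perm X) (σ : H →* Equiv.Perm X),
        (∀ g : G, ∃ K : Set H, K.Finite ∧ ∀ x : X, ∃ h ∈ K, ρ g x = σ h x) →
          (Set.range ρ).Finite) ∧
    -- (4) homomorphisms to topological full groups have finite image
    (∀ (X : Type v) [TopologicalSpace X] (φ : X ≃ₜ X) (ρ : G →* (X ≃ₜ X)),
      (∀ g : G, ρ g ∈ topFullGroup φ) → (Set.range ρ).Finite) ∧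
    -- (5) actions of bounded type on spaces of sequences have finite image
    (∀ (A : Type v) [Finite A] [MulAction G (ℕ → A)],
      (∀ g : G, ∃ C : ℕ, ∀ n, (activity (A := A) g n).ncard ≤ C) →
        (Set.range (MulAction.toPermHom G (ℕ → A))).Finite) ∧
    -- (6) orbits with carvings of bounded width are bounded
    (∀ S : Set G, S.Finite → Subgroup.closure S = ⊤ → ∀ C : ℕ,
      ∃ B : ℕ, ∀ (X : Type v) [MulAction G X] (x : X) (F : ℕ → Set X), Monotone F →
        (∀ n, Carv S C (F n)) → ⋃ n, F n = MulAction.orbit G x →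
          (MulAction.orbit G x).Finite ∧ (MulAction.orbit G x).ncard ≤ B) := by
  refine ⟨?_, ?_, ?_, ?_, ?_, ?_⟩
  · intro S hSf hS
    exact growth_gap hper S hSf hS
  · intro X _ S hSf hS x hx C
    exact exhaust_orbit hper S hSf hS x hx C
  · intro X H _ t ht ρ σ hρ
    exact piecewise_finite hper ρ σ t ht hρ
  · intro X _ φ ρ hρ
    exact full_group_finite hper φ ρ hρ
  · intro A _ _ hact
    exact bounded_type_fin hper hact
  · intro S hSf hS C
    exact carving_exhaust hper S hSf hS C

end Vale.Agent.Results.P192.SchreierGrowth
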